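import Vale.Agent.P004G.H871.Rank
import Vale.Agent.P004.B
import Vale.Agent.P004.H628.Sign

/-!
# P004G, package G8 (b): entire continuation, uniqueness and parity

* `pfLent : StLent`;
* `pfLparity : StLparity`;
* `PhiA_series'`: the Dirichlet series of the completed function for `Re s > 3/2`.
-/

open Complex Filter Set MeasureTheory Asymptotics
open scoped Topology ENNReal

namespace P004G
namespace Rk

variable {A : ℕ → ℤ} {q κ : ℝ}

/-- absolute convergence for `σ > 3/2` -/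
lemma summable_dir' (hA : LD A) {σ : ℝ} (hσ : 3 / 2 < σ) :
    Summable (fun n : ℕ => |(A n : ℝ)| / (n : ℝ) ^ σ) := by
  obtain ⟨C, -, B, hB⟩ := P004.pfDiv.1 1
  set θ : ℝ := min (σ - 3 / 2) 1 with hθ
  have hθ0 : 0 < θ := lt_min (by linarith) one_pos
  have hθ1 : θ ≤ 1 := min_le_right _ _
  have hθσ : θ ≤ σ - 3 / 2 := min_le_left _ _
  have h1 := hB θ hθ0 hθ1
  have h2 : Summable (fun n : ℕ => P004.dv n ^ 1 * (n : ℝ) ^ (-1 - θ)) := by
    have h3 : ∀ n : ℕ, 0 ≤ P004.dv n ^ 1 * (n : ℝ) ^ (-1 - θ) := fun n => by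
      unfold P004.dv; positivity
    have h4 : (∑' n : ℕ, ENNReal.ofReal (P004.dv n ^ 1 * (n : ℝ) ^ (-1 - θ))) ≠ ⊤ :=
      ne_top_of_le_ne_top ENNReal.ofReal_ne_top h1
    have h5 := ENNReal.summable_toReal h4
    refine h5.congr fun n => ?_
    rw [ENNReal.toReal_ofReal (h3 n)]
  refine h2.of_nonneg_of_le (fun n => by positivity) (fun n => ?_)
  rcases Nat.eq_zero_or_pos n with rfl | hn
  · rw [hA.zero]
    simp [P004.dv]
  · have hn1 : (1 : ℝ) ≤ n := by exact_mod_cast hn
    have hn0 : (0 : ℝ) < n := by linarith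
    rw [pow_one, div_le_iff₀ (by positivity)]
    refine (pfLbound A hA n).trans ?_
    rw [mul_assoc]
    apply mul_le_mul_of_nonneg_left _ (by unfold P004.dv; positivity)
    rw [Real.sqrt_eq_rpow, ← Real.rpow_add hn0]
    exact Real.rpow_le_rpow_of_exponent_le hn1 (by linarith)

/-- the Dirichlet series converges absolutely for `Re s > 3/2` -/
lemma summable_dirC (hA : LD A) {s : ℂ} (hs : 3 / 2 < s.re) :
    Summable (fun n : ℕ => (A n : ℂ) / (n : ℂ) ^ s) := by
  refine Summable.of_norm_bounded (summable_dir' hA hs) fun n => ?_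
  rcases Nat.eq_zero_or_pos n with rfl | hn
  · rw [hA.zero]; simp
  · rw [norm_div, norm_natCast_cpow_of_pos hn, Complex.norm_intCast]

/-- the Dirichlet series of the completed function for `Re s > 3/2` -/
lemma PhiA_series' (hA : LD A) {s : ℂ} (hs : 3 / 2 < s.re) :
    HasSum (fun n : ℕ => 4 * Complex.Gamma s * (Real.pi : ℂ) ^ (-s) *
      ((A n : ℂ) / (n : ℂ) ^ s)) (PhiA A s) := by
  have h1 := hasSum_mellin (a := fun n : ℕ => (4 * (A n : ℂ)))
    (p := fun n : ℕ => Real.pi * n) (F := fun u : ℝ => ((TH A u : ℝ) : ℂ)) (s := s) ?_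
    (by linarith) ?_ ?_
  · have e : (fun n : ℕ => 4 * Complex.Gamma s * (Real.pi : ℂ) ^ (-s) *
        ((A n : ℂ) / (n : ℂ) ^ s)) =
        fun n : ℕ => Complex.Gamma s * (4 * (A n : ℂ)) / ((Real.pi * n : ℝ) : ℂ) ^ s := by
      ext n
      rcases Nat.eq_zero_or_pos n with rfl | hn
      · rw [hA.zero]
        simp
      · have hn0 : (0 : ℝ) < n := by exact_mod_cast hn
        have e1 : ((Real.pi * n : ℝ) : ℂ) ^ s = (Real.pi : ℂ) ^ s * (n : ℂ) ^ s := by
          rw [Complex.ofReal_mul, mul_cpow_ofReal_nonneg Real.pi_pos.le hn0.le]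
          norm_cast
        have e2 : (Real.pi : ℂ) ^ s ≠ 0 := by
          rw [Ne, cpow_eq_zero_iff]
          have := Real.pi_ne_zero
          simp [this]
        have e3 : (n : ℂ) ^ s ≠ 0 := by
          rw [Ne, cpow_eq_zero_iff]
          have := hn.ne'
          simp [this]
        rw [e1, Complex.cpow_neg]
        field_simp
    rw [e]
    exact h1
  · intro n
    rcases Nat.eq_zero_or_pos n with rfl | hn
    · left
      rw [hA.zero]; simp
    · right
      have : (0 : ℝ) < n := by exact_mod_cast hn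
      positivity
  · intro u hu
    have h2 := ((summable_TH hA hu).hasSum.mul_left 4)
    have h3 := Complex.hasSum_ofReal.2 h2
    have e : (fun n : ℕ => (4 * (A n : ℂ)) * ((Real.exp (-(Real.pi * n) * u) : ℝ) : ℂ)) =
        fun n : ℕ => ((4 * ((A n : ℝ) * Real.exp (-Real.pi * n * u)) : ℝ) : ℂ) := by
      ext n
      push_cast
      have : (-(Real.pi : ℂ) * n * u) = -((Real.pi : ℂ) * n) * u := by ring
      rw [this]
      ring
    rw [e]
    exact h3
  · have h2 := (summable_dir' hA hs).mul_left (4 / Real.pi ^ s.re)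
    refine h2.congr fun n => ?_
    rcases Nat.eq_zero_or_pos n with rfl | hn
    · rw [hA.zero]
      simp
    · have hn0 : (0 : ℝ) < n := by exact_mod_cast hn
      rw [Real.mul_rpow Real.pi_pos.le hn0.le, norm_mul, Complex.norm_intCast]
      have : ‖(4 : ℂ)‖ = 4 := by simp
      rw [this]
      field_simp

/-- the entire continuation -/
lemma isL_PhiA (hA : LD A) (hF : FEq A q κ) : IsL A (fun s => PhiA A s * hf s) := by
  refine ⟨(PhiA_diff hA hF).mul hf_diff, fun s hs => ?_⟩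
  show PhiA A s * hf s = _
  rw [← (PhiA_series' hA hs).tsum_eq, tsum_mul_left]
  have := hf_mul (s := s) (by linarith)
  calc 4 * Complex.Gamma s * (Real.pi : ℂ) ^ (-s) * (∑' n : ℕ, (A n : ℂ) / (n : ℂ) ^ s) * hf s
      = (4 * Complex.Gamma s * (Real.pi : ℂ) ^ (-s) * hf s) *
          (∑' n : ℕ, (A n : ℂ) / (n : ℂ) ^ s) := by ring
    _ = _ := by rw [this, one_mul]

/-- uniqueness of the continuation -/
lemma isL_unique {L L' : ℂ → ℂ} (h : IsL A L) (h' : IsL A L') : L' = L := by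
  have h1 : AnalyticOnNhd ℂ L univ := fun z _ => h.1.analyticAt z
  have h2 : AnalyticOnNhd ℂ L' univ := fun z _ => h'.1.analyticAt z
  refine h2.eq_of_eventuallyEq h1 (z₀ := 2) ?_
  have hopen : IsOpen {s : ℂ | 3 / 2 < s.re} := isOpen_lt continuous_const Complex.continuous_re
  have hmem : (2 : ℂ) ∈ {s : ℂ | 3 / 2 < s.re} := by
    show (3 / 2 : ℝ) < (2 : ℂ).re
    rw [Complex.re_ofNat]; norm_num
  filter_upwards [hopen.mem_nhds hmem] with s hs
  rw [h.2 s hs, h'.2 s hs]

/-- the symmetric form of the completed function: `F (2 - s) = κ F s` -/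
lemma PhiA_sym (hF : FEq A q κ) (s : ℂ) :
    (q : ℂ) ^ ((2 - s) / 2) * PhiA A (2 - s) = (κ : ℂ) * ((q : ℂ) ^ (s / 2) * PhiA A s) := by
  have hq := hF.1
  have hq0 : (q : ℂ) ≠ 0 := by exact_mod_cast hq.ne'
  rw [PhiA_fe hF s]
  have e : (q : ℂ) ^ ((2 - s) / 2) * (q : ℂ) ^ (s - 1) = (q : ℂ) ^ (s / 2) := by
    rw [← Complex.cpow_add _ _ hq0]
    congr 1
    ring
  calc (q : ℂ) ^ ((2 - s) / 2) * ((κ : ℂ) * (q : ℂ) ^ (s - 1) * PhiA A s)
      = (κ : ℂ) * (((q : ℂ) ^ ((2 - s) / 2) * (q : ℂ) ^ (s - 1)) * PhiA A s) := by ring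
    _ = _ := by rw [e]

/-- the root number is `(-1)` to the order of vanishing of the completed function -/
lemma parity_PhiA (hA : LD A) (hF : FEq A q κ) {r : ℕ}
    (hr : analyticOrderAt (PhiA A) 1 = r) : κ = (-1) ^ r := by
  have hq := hF.1
  have hq0 : (q : ℂ) ≠ 0 := by exact_mod_cast hq.ne'
  have hd : Differentiable ℂ (fun s : ℂ => (q : ℂ) ^ (s / 2)) :=
    (differentiable_id.div_const 2).const_cpow (Or.inl hq0)
  refine P004.H628.parity_of_fe (F := fun s : ℂ => (q : ℂ) ^ (s / 2) * PhiA A s)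
    (hd.mul (PhiA_diff hA hF)) (fun s => PhiA_sym hF s) ?_
  have h4 := analyticOrderAt_mul (hd.analyticAt 1) ((PhiA_diff hA hF).analyticAt 1)
  have h5 : analyticOrderAt (fun s : ℂ => (q : ℂ) ^ (s / 2)) 1 = 0 := by
    refine (hd.analyticAt 1).analyticOrderAt_eq_zero.mpr ?_
    intro h
    rw [Complex.cpow_eq_zero_iff] at h
    exact hq0 h.1
  rw [h5, zero_add, hr] at h4
  exact h4

end Rk

/-- Module L3. -/
theorem pfLent : StLent := fun _ _ _ hA hF =>
  ⟨_, Rk.isL_PhiA hA hF, fun _ hL' => Rk.isL_unique (Rk.isL_PhiA hA hF) hL'⟩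

/-- the root number is `(-1)` to the analytic rank -/
theorem root_eq {A : ℕ → ℤ} {q κ : ℝ} {L : ℂ → ℂ} (hA : LD A) (hF : FEq A q κ) (hL : IsL A L) :
    κ = (-1) ^ (analyticOrderNatAt L 1) := by
  have hne : analyticOrderAt L 1 ≠ ⊤ := by
    rw [Rk.order_eq hA hF hL]
    exact Rk.order_PhiA hA hF
  refine Rk.parity_PhiA hA hF ?_
  rw [Nat.cast_analyticOrderNatAt hne]
  exact (Rk.order_eq hA hF hL).symm

/-- Module L5. -/
theorem pfLparity : StLparity := by
  intro A q κ L hA hF hL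
  have h := root_eq hA hF hL
  constructor
  · intro h1
    by_contra hodd
    rw [Nat.not_even_iff_odd] at hodd
    rw [h1, hodd.neg_one_pow] at h
    norm_num at h
  · intro hev
    rw [h, hev.neg_one_pow]

end P004G
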